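import Vale.Agent.P208.Annular

namespace Vale.Agent.Results.P208.AnnularDim

open Vale.Agent.P208

/-- If, around some point `p` of `ℓ²`, every dyadic annulus `2^j ≤ ‖x - p‖ < 2^(j+1)` of `X`
lies in `p + W j` for a linear subspace `W j` of dimension at most `n` (the subspaces may vary
arbitrarily with `j`, so `X` may span an infinite-dimensional space), then `X` embeds into
`ℝ^(2n)` with distortion at most `9`. -/
theorem result (X : Set L2) (p : L2) (n : ℕ) (W : ℤ → Submodule ℝ L2)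
    (hfd : ∀ j, FiniteDimensional ℝ (W j)) (hn : ∀ j, Module.finrank ℝ (W j) ≤ n)
    (hX : ∀ x ∈ X, ∀ j : ℤ, (2 : ℝ) ^ j ≤ ‖x - p‖ → ‖x - p‖ < (2 : ℝ) ^ (j + 1) → x - p ∈ W j) :
    BiLipEmbeds X (2 * n) 9 :=
  annular_embeds X p n W hfd hn hX

end Vale.Agent.Results.P208.AnnularDim
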