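import Vale.Agent.P208.Ortho

namespace Vale.Agent.Results.P208.OrthoBouquet

open Vale.Agent.P208

/-- Strong (quantitative) form of the Lang-Plaut question for a special family: a subset `X` of
`ℓ²` which is doubling with constant `N` and is contained in the union of a family of pairwise
orthogonal linear subspaces of dimension at most `m` embeds into `ℝ^(2 N³ m)` with distortion at
most `9`. -/
theorem result (ι : Type) (V : ι → Submodule ℝ L2) (m N : ℕ)
    (hfd : ∀ i, FiniteDimensional ℝ (V i)) (hm : ∀ i, Module.finrank ℝ (V i) ≤ m)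
    (horth : ∀ i j, i ≠ j → V i ⟂ V j) (X : Set L2) (hX : X ⊆ ⋃ i, (V i : Set L2))
    (hd : DoublingWith X N) : BiLipEmbeds X (2 * (N ^ 3 * m)) 9 :=
  orthogonal_family_embeds V m N hfd hm horth X hX hd

end Vale.Agent.Results.P208.OrthoBouquet
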