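import Vale.Agent.P208.Sparse

namespace Vale.Agent.Results.P208.PlainSparse

open Vale.Agent.P208

/-- The Lang-Plaut question answered positively, in its strong uniform form, for sparse vectors;
written with Mathlib notions only (`ℓ²` is `lp (fun _ : ℕ => ℝ) 2`).  For all `m`, `N` there are a
dimension `k` and a distortion `D` such that every subset `X` of `ℓ²` all of whose points have at
most `m` nonzero coordinates and which is doubling with constant `N` admits a map `f` into `ℝ^k`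
and a scale `a > 0` with `a d(x,y) ≤ d(f x, f y) ≤ D a d(x,y)` on `X`. -/
theorem result (m N : ℕ) : ∃ (k : ℕ) (D : ℝ), ∀ X : Set (lp (fun _ : ℕ => ℝ) 2),
    (∀ x ∈ X, ∃ s : Finset ℕ, s.card ≤ m ∧ ∀ i, i ∉ s → x i = 0) →
    (∀ x ∈ X, ∀ r : ℝ, 0 < r → ∃ C : Finset (lp (fun _ : ℕ => ℝ) 2),
      (C : Set (lp (fun _ : ℕ => ℝ) 2)) ⊆ X ∧ C.card ≤ N ∧
        X ∩ Metric.ball x r ⊆ ⋃ c ∈ C, Metric.closedBall c (r / 2)) →
    ∃ (f : lp (fun _ : ℕ => ℝ) 2 → EuclideanSpace ℝ (Fin k)) (a : ℝ), 0 < a ∧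
      ∀ x ∈ X, ∀ y ∈ X,
        a * dist x y ≤ dist (f x) (f y) ∧ dist (f x) (f y) ≤ D * a * dist x y :=
  sparse_embeds m N

end Vale.Agent.Results.P208.PlainSparse
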