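import Vale.Agent.P208.Sparse

namespace Vale.Agent.Results.P208.SparseVectors

open Vale.Agent.P208

/-- Strong (quantitative) form of the Lang-Plaut question for sparse vectors: for all `m` and `N`
there are a dimension `k` and a distortion `D`, depending only on `m` and `N`, such that every
subset of `ℓ²` that is doubling with constant `N` and consists of vectors with at most `m` nonzero
coordinates admits a bi-Lipschitz embedding into `ℝ^k` with distortion at most `D`. -/
theorem result (m N : ℕ) :
    ∃ (k : ℕ) (D : ℝ), ∀ X : Set L2, (∀ x ∈ X, IsSparse m x) → DoublingWith X N →
      BiLipEmbeds X k D :=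
  sparse_embeds m N

end Vale.Agent.Results.P208.SparseVectors
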